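import Mathlib
import Vale.Agent.P088.H198.Defs

/-!
# P088: interpolation between the `L²` norm and the `C^K` norm (row ITP)
-/

open MeasureTheory Set
open scoped ContDiff

noncomputable section

namespace Vale.Agent.P088.HY.Itp

open Vale.Agent.P088.LR

/-! ## Log-convex sequences -/

theorem lc_pow {a : ℕ → ℝ} (ha : ∀ j, 0 ≤ a j) {c : ℝ} (hc : 1 ≤ c) {N : ℕ}
    (h : ∀ j, j + 2 ≤ N → a (j + 1) ^ 2 ≤ c * (a j * a (j + 2))) :
    ∀ m, ∀ j, j + (m + 1) ≤ N →
      a (j + 1) ^ (m + 1) ≤ c ^ ((m + 1) ^ 2) * (a j ^ m * a (j + (m + 1))) := by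
  have hc0 : 0 ≤ c := zero_le_one.trans hc
  intro m
  induction m with
  | zero =>
    intro j _
    have : a (j + 1) * 1 ≤ a (j + 1) * c := mul_le_mul_of_nonneg_left hc (ha _)
    simp only [zero_add, pow_one, one_pow, pow_zero, one_mul]
    linarith
  | succ m ih =>
    intro j hj
    have h1 := ih (j + 1) (by omega)
    have h2 := h j (by omega)
    have e1 : j + 1 + (m + 1) = j + (m + 1 + 1) := by omega
    have e2 : j + 1 + 1 = j + 2 := by omega
    rw [e1, e2] at h1
    rcases (ha (j + 1)).eq_or_lt with h0 | h0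
    · rw [← h0, zero_pow (by omega)]
      have := ha j
      have := ha (j + (m + 1 + 1))
      positivity
    · have h3 : a (j + 1) ^ (m + 2) * a (j + 1) ^ m
          ≤ (c ^ ((m + 1 + 1) ^ 2) * (a j ^ (m + 1) * a (j + (m + 1 + 1)))) * a (j + 1) ^ m := by
        calc a (j + 1) ^ (m + 2) * a (j + 1) ^ m = (a (j + 1) ^ 2) ^ (m + 1) := by ring
          _ ≤ (c * (a j * a (j + 2))) ^ (m + 1) := pow_le_pow_left₀ (by positivity) h2 _
          _ = c ^ (m + 1) * a j ^ (m + 1) * a (j + 2) ^ (m + 1) := by ring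
          _ ≤ c ^ (m + 1) * a j ^ (m + 1)
              * (c ^ ((m + 1) ^ 2) * (a (j + 1) ^ m * a (j + (m + 1 + 1)))) :=
              mul_le_mul_of_nonneg_left h1 (by have := ha j; positivity)
          _ = c ^ (m + 1 + (m + 1) ^ 2)
              * (a j ^ (m + 1) * a (j + 1) ^ m * a (j + (m + 1 + 1))) := by ring
          _ ≤ c ^ ((m + 1 + 1) ^ 2)
              * (a j ^ (m + 1) * a (j + 1) ^ m * a (j + (m + 1 + 1))) := by
              apply mul_le_mul_of_nonneg_right
              · apply pow_le_pow_right₀ hc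
                nlinarith
              · have := ha j
                have := ha (j + (m + 1 + 1))
                positivity
          _ = _ := by ring
      exact le_of_mul_le_mul_right h3 (by positivity)

/-- `A ≤ 2M/h + N h` for all `h` gives `A² ≤ 8 M N`. -/
theorem opt_h {A M N : ℝ} (hA : 0 ≤ A) (hM : 0 ≤ M) (hN : 0 ≤ N)
    (h : ∀ t : ℝ, 0 < t → A * t ≤ 2 * M + N * t ^ 2) : A ^ 2 ≤ 8 * (M * N) := by
  rcases hN.eq_or_lt with h0 | h0
  · -- N = 0
    have hA0 : A = 0 := by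
      by_contra hne
      have hA' : 0 < A := lt_of_le_of_ne hA (Ne.symm hne)
      have := h ((2 * M + 1) / A) (by positivity)
      rw [← h0, mul_div_cancel₀ _ hne] at this
      linarith
    rw [hA0, ← h0]
    simp
  · rcases hA.eq_or_lt with h1 | h1
    · rw [← h1, zero_pow (by norm_num)]
      positivity
    · have h2 := h (A / (2 * N)) (by positivity)
      have e1 : A * (A / (2 * N)) = A ^ 2 / (2 * N) := by ring
      have e2 : N * (A / (2 * N)) ^ 2 = A ^ 2 / (4 * N) := by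
        field_simp
        ring
      rw [e1, e2] at h2
      have h3 : A ^ 2 / (2 * N) - A ^ 2 / (4 * N) = A ^ 2 / (4 * N) := by
        field_simp
        ring
      have h4 : A ^ 2 / (4 * N) ≤ 2 * M := by linarith
      rw [div_le_iff₀ (by positivity)] at h4
      linarith

/-! ## Suprema of the derivatives -/

variable {n : ℕ}

/-- `sup ‖D^j f‖`. -/
def sD (f : V n → ℝ) (j : ℕ) : ℝ := ⨆ x, ‖iteratedFDeriv ℝ j f x‖

theorem sD_nonneg (f : V n → ℝ) (j : ℕ) : 0 ≤ sD f j :=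
  Real.iSup_nonneg fun _ => norm_nonneg _

theorem sD_bdd {f : V n → ℝ} (hf : ContDiff ℝ ∞ f) (hc : HasCompactSupport f) (j : ℕ) :
    BddAbove (range fun x => ‖iteratedFDeriv ℝ j f x‖) := by
  obtain ⟨C, hC⟩ := (hf.continuous_iteratedFDeriv (m := j)
    (by exact_mod_cast le_top)).bounded_above_of_compact_support (hc.iteratedFDeriv j)
  refine ⟨C, ?_⟩
  rintro _ ⟨x, rfl⟩
  exact hC x

theorem le_sD {f : V n → ℝ} (hf : ContDiff ℝ ∞ f) (hc : HasCompactSupport f) (j : ℕ) (x : V n) :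
    ‖iteratedFDeriv ℝ j f x‖ ≤ sD f j := le_ciSup (sD_bdd hf hc j) x

theorem diff_it {f : V n → ℝ} (hf : ContDiff ℝ ∞ f) (j : ℕ) :
    Differentiable ℝ (iteratedFDeriv ℝ j f) :=
  hf.differentiable_iteratedFDeriv (by exact_mod_cast WithTop.coe_lt_top _)

/-- The derivatives are Lipschitz. -/
theorem lip_it {f : V n → ℝ} (hf : ContDiff ℝ ∞ f) (hc : HasCompactSupport f) (j : ℕ)
    (x y : V n) :
    ‖iteratedFDeriv ℝ j f y - iteratedFDeriv ℝ j f x‖ ≤ sD f (j + 1) * ‖y - x‖ := by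
  apply Convex.norm_image_sub_le_of_norm_fderiv_le (s := univ) (𝕜 := ℝ)
  · intro z _
    exact diff_it hf j z
  · intro z _
    rw [norm_fderiv_iteratedFDeriv]
    exact le_sD hf hc (j + 1) z
  · exact convex_univ
  · trivial
  · trivial

theorem lip_fd {f : V n → ℝ} (hf : ContDiff ℝ ∞ f) (hc : HasCompactSupport f) (j : ℕ)
    (x y : V n) :
    ‖fderiv ℝ (iteratedFDeriv ℝ j f) y - fderiv ℝ (iteratedFDeriv ℝ j f) x‖
      ≤ sD f (j + 2) * ‖y - x‖ := by
  have h1 := lip_it hf hc (j + 1) x y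
  have e : ∀ z, iteratedFDeriv ℝ (j + 1) f z
      = (continuousMultilinearCurryLeftEquiv ℝ (fun _ : Fin (j + 1) => V n) ℝ).symm
        (fderiv ℝ (iteratedFDeriv ℝ j f) z) := fun z => congrFun iteratedFDeriv_succ_eq_comp_left z
  rw [e, e] at h1
  have e2 : ‖(continuousMultilinearCurryLeftEquiv ℝ (fun _ : Fin (j + 1) => V n) ℝ).symm
        (fderiv ℝ (iteratedFDeriv ℝ j f) y)
      - (continuousMultilinearCurryLeftEquiv ℝ (fun _ : Fin (j + 1) => V n) ℝ).symm
        (fderiv ℝ (iteratedFDeriv ℝ j f) x)‖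
      = ‖fderiv ℝ (iteratedFDeriv ℝ j f) y - fderiv ℝ (iteratedFDeriv ℝ j f) x‖ := by
    rw [← LinearIsometryEquiv.map_sub]
    exact LinearIsometryEquiv.norm_map _ _
  rw [e2] at h1
  exact h1

/-- The Landau inequality. -/
theorem landau {f : V n → ℝ} (hf : ContDiff ℝ ∞ f) (hc : HasCompactSupport f) (j : ℕ) :
    sD f (j + 1) ^ 2 ≤ 8 * (sD f j * sD f (j + 2)) := by
  have h0 := sD_nonneg f j
  have h2 := sD_nonneg f (j + 2)
  apply opt_h (sD_nonneg _ _) h0 h2
  intro t ht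
  have key : ∀ x, ‖iteratedFDeriv ℝ (j + 1) f x‖ ≤ (2 * sD f j + sD f (j + 2) * t ^ 2) / t := by
    intro x
    rw [← norm_fderiv_iteratedFDeriv]
    apply ContinuousLinearMap.opNorm_le_bound _ (by positivity)
    intro v
    rcases eq_or_ne v 0 with rfl | hv
    · simp
    have hv0 : 0 < ‖v‖ := norm_pos_iff.mpr hv
    set r : ℝ := t / ‖v‖ with hr
    have hr0 : 0 < r := by positivity
    have hrv : ‖r • v‖ = t := by
      rw [norm_smul, Real.norm_of_nonneg hr0.le, hr]
      field_simp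
    have h3 : ‖iteratedFDeriv ℝ j f (x + r • v) - iteratedFDeriv ℝ j f x
        - fderiv ℝ (iteratedFDeriv ℝ j f) x ((x + r • v) - x)‖
        ≤ (sD f (j + 2) * t) * ‖(x + r • v) - x‖ := by
      apply Convex.norm_image_sub_le_of_norm_fderiv_le' (s := Metric.closedBall x t) (𝕜 := ℝ)
      · intro z _
        exact diff_it hf j z
      · intro z hz
        refine (lip_fd hf hc j x z).trans ?_
        rw [Metric.mem_closedBall, dist_eq_norm] at hz
        exact mul_le_mul_of_nonneg_left hz h2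
      · exact convex_closedBall x t
      · exact Metric.mem_closedBall_self ht.le
      · rw [Metric.mem_closedBall, dist_eq_norm, add_sub_cancel_left, hrv]
    rw [add_sub_cancel_left, hrv] at h3
    have h4 := le_sD hf hc j (x + r • v)
    have h5 := le_sD hf hc j x
    have h6 : ‖fderiv ℝ (iteratedFDeriv ℝ j f) x (r • v)‖ ≤ 2 * sD f j + sD f (j + 2) * t ^ 2 := by
      have e : fderiv ℝ (iteratedFDeriv ℝ j f) x (r • v)
          = (iteratedFDeriv ℝ j f (x + r • v) - iteratedFDeriv ℝ j f x)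
            - (iteratedFDeriv ℝ j f (x + r • v) - iteratedFDeriv ℝ j f x
              - fderiv ℝ (iteratedFDeriv ℝ j f) x (r • v)) := by abel
      rw [e]
      refine (norm_sub_le _ _).trans ?_
      have := norm_sub_le (iteratedFDeriv ℝ j f (x + r • v)) (iteratedFDeriv ℝ j f x)
      nlinarith
    rw [map_smul, norm_smul, Real.norm_of_nonneg hr0.le] at h6
    have h7 : ‖fderiv ℝ (iteratedFDeriv ℝ j f) x v‖
        ≤ (2 * sD f j + sD f (j + 2) * t ^ 2) / r := by
      rw [le_div_iff₀ hr0]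
      linarith
    refine h7.trans (le_of_eq ?_)
    rw [hr]
    field_simp
  have h3 : sD f (j + 1) ≤ (2 * sD f j + sD f (j + 2) * t ^ 2) / t := ciSup_le key
  rwa [le_div_iff₀ ht] at h3

/-! ## The lower bound of the `L²` norm -/

theorem lip0 {f : V n → ℝ} (hf : ContDiff ℝ ∞ f) (hc : HasCompactSupport f) (x y : V n) :
    |f y - f x| ≤ sD f 1 * ‖y - x‖ := by
  have h := lip_it hf hc 0 x y
  have e : ∀ z, iteratedFDeriv ℝ 0 f z
      = (continuousMultilinearCurryFin0 ℝ (V n) ℝ).symm (f z) := fun z =>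
    congrFun iteratedFDeriv_zero_eq_comp z
  rw [e, e] at h
  have e2 : ‖(continuousMultilinearCurryFin0 ℝ (V n) ℝ).symm (f y)
      - (continuousMultilinearCurryFin0 ℝ (V n) ℝ).symm (f x)‖ = |f y - f x| := by
    rw [← LinearIsometryEquiv.map_sub, LinearIsometryEquiv.norm_map, Real.norm_eq_abs]
  rw [e2, zero_add] at h
  exact h

theorem int_sq {f : V n → ℝ} (hf : ContDiff ℝ ∞ f) (hc : HasCompactSupport f) :
    Integrable (fun x => f x ^ 2) := by
  apply Continuous.integrable_of_hasCompactSupport (hf.continuous.pow 2)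
  have := hc.comp_left (g := fun t : ℝ => t ^ 2) (by norm_num)
  exact this

theorem cube_bound' {f : V n → ℝ} (hf : ContDiff ℝ ∞ f) (hc : HasCompactSupport f) (x₀ : V n)
    {A : ℝ} (hA : 0 < A) (hA1 : sD f 1 ≤ A) :
    |f x₀| ^ (n + 2) ≤ 4 * A ^ n * ∫ x, f x ^ 2 := by
  have hY : 0 ≤ ∫ x, f x ^ 2 := integral_nonneg fun x => sq_nonneg _
  set m := |f x₀| with hm
  have hm0 : 0 ≤ m := abs_nonneg _
  rcases hm0.eq_or_lt with h0 | h0
  · rw [← h0, zero_pow (by omega)]
    positivity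
  set δ := m / (2 * A) with hδ
  have hδ0 : 0 < δ := by positivity
  have h1 : ∀ y ∈ Metric.closedBall x₀ δ, (m / 2) ^ 2 ≤ f y ^ 2 := by
    intro y hy
    rw [Metric.mem_closedBall, dist_eq_norm] at hy
    have h2 := lip0 hf hc x₀ y
    have h3 : sD f 1 * ‖y - x₀‖ ≤ A * δ :=
      mul_le_mul hA1 hy (norm_nonneg _) hA.le
    have h4 : A * δ = m / 2 := by rw [hδ]; field_simp
    have h5 : m ≤ |f y| + |f y - f x₀| := by
      have e : f x₀ = f y - (f y - f x₀) := by ring
      calc m = |f y - (f y - f x₀)| := by rw [hm, ← e]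
        _ ≤ |f y| + |f y - f x₀| := abs_sub _ _
    have h6 : m / 2 ≤ |f y| := by linarith
    calc (m / 2) ^ 2 ≤ |f y| ^ 2 := pow_le_pow_left₀ (by positivity) h6 2
      _ = f y ^ 2 := sq_abs _
  have hint := int_sq hf hc
  have h2 : ∫ x in Metric.closedBall x₀ δ, (m / 2) ^ 2 ≤ ∫ x, f x ^ 2 := by
    calc ∫ x in Metric.closedBall x₀ δ, (m / 2) ^ 2
        ≤ ∫ x in Metric.closedBall x₀ δ, f x ^ 2 := by
          apply setIntegral_mono_on _ hint.integrableOn measurableSet_closedBall h1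
          exact integrableOn_const (by
            rw [Real.volume_pi_closedBall _ hδ0.le]
            exact ENNReal.ofReal_ne_top)
      _ ≤ ∫ x, f x ^ 2 := setIntegral_le_integral hint (ae_of_all _ fun x => sq_nonneg _)
  rw [setIntegral_const, smul_eq_mul] at h2
  have h3 : volume.real (Metric.closedBall x₀ δ) = (2 * δ) ^ n := by
    rw [Measure.real, Real.volume_pi_closedBall _ hδ0.le, Fintype.card_fin,
      ENNReal.toReal_ofReal (by positivity)]
  rw [h3] at h2
  have h4 : 2 * δ = m / A := by rw [hδ]; field_simp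
  rw [h4, div_pow, div_pow] at h2
  have h5 : m ^ (n + 2) = 4 * A ^ n * (m ^ n / A ^ n * (m ^ 2 / 2 ^ 2)) := by
    field_simp
    ring
  rw [h5]
  exact mul_le_mul_of_nonneg_left h2 (by positivity)

theorem cube_bound {f : V n → ℝ} (hf : ContDiff ℝ ∞ f) (hc : HasCompactSupport f) (x₀ : V n) :
    |f x₀| ^ (n + 2) ≤ 4 * sD f 1 ^ n * ∫ x, f x ^ 2 := by
  have hY : 0 ≤ ∫ x, f x ^ 2 := integral_nonneg fun x => sq_nonneg _
  rcases (sD_nonneg f 1).eq_or_lt with h0 | h0
  · rcases Nat.eq_zero_or_pos n with hn | hn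
    · have h1 := cube_bound' hf hc x₀ one_pos (by rw [← h0]; norm_num)
      subst hn
      simpa only [pow_zero, one_pow] using h1
    · -- all A > 0
      rw [← h0, zero_pow hn.ne', mul_zero, zero_mul]
      by_contra hne
      push Not at hne
      set M := |f x₀| ^ (n + 2) with hM
      set Y := ∫ x, f x ^ 2 with hYd
      set A := min 1 (M / (2 * (4 * Y + 1))) with hA
      have hA0 : 0 < A := by
        rw [hA]
        positivity
      have hA1 : A ≤ 1 := min_le_left _ _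
      have hA2 : A ≤ M / (2 * (4 * Y + 1)) := min_le_right _ _
      have h1 := cube_bound' hf hc x₀ hA0 (by rw [← h0]; exact hA0.le)
      have h2 : A ^ n ≤ A := by
        calc A ^ n ≤ A ^ 1 := pow_le_pow_of_le_one hA0.le hA1 hn
          _ = A := pow_one _
      have h3 : 4 * A ^ n * Y ≤ 4 * A * Y := by gcongr
      have h4 : A * (2 * (4 * Y + 1)) ≤ M := by
        rwa [le_div_iff₀ (by positivity)] at hA2
      nlinarith
  · exact cube_bound' hf hc x₀ h0 le_rfl

theorem sD0_bound {f : V n → ℝ} (hf : ContDiff ℝ ∞ f) (hc : HasCompactSupport f) :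
    sD f 0 ^ (n + 2) ≤ 4 * sD f 1 ^ n * ∫ x, f x ^ 2 := by
  have hY : 0 ≤ ∫ x, f x ^ 2 := integral_nonneg fun x => sq_nonneg _
  have hR : 0 ≤ 4 * sD f 1 ^ n * ∫ x, f x ^ 2 := by
    have := sD_nonneg f 1
    positivity
  set R := 4 * sD f 1 ^ n * ∫ x, f x ^ 2 with hRd
  have hp : (0 : ℝ) < ((n + 2 : ℕ) : ℝ) := by positivity
  have h1 : sD f 0 ≤ R ^ (1 / ((n + 2 : ℕ) : ℝ)) := by
    apply ciSup_le
    intro x
    rw [norm_iteratedFDeriv_zero, Real.norm_eq_abs]
    have h2 := cube_bound hf hc x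
    rw [← hRd] at h2
    calc |f x| = (|f x| ^ (n + 2)) ^ (1 / ((n + 2 : ℕ) : ℝ)) := by
          rw [← Real.rpow_natCast, ← Real.rpow_mul (abs_nonneg _), mul_one_div_cancel hp.ne',
            Real.rpow_one]
      _ ≤ R ^ (1 / ((n + 2 : ℕ) : ℝ)) := Real.rpow_le_rpow (by positivity) h2 (by positivity)
  calc sD f 0 ^ (n + 2) ≤ (R ^ (1 / ((n + 2 : ℕ) : ℝ))) ^ (n + 2) :=
        pow_le_pow_left₀ (sD_nonneg _ _) h1 _
    _ = R := by
        rw [← Real.rpow_natCast, ← Real.rpow_mul hR, one_div_mul_cancel hp.ne', Real.rpow_one]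

/-! ## The normalised inequality -/

theorem supp_of {f : V n → ℝ} (h0 : ∀ x ∉ {x : V n | ∑ j, x j ^ 2 < 1}, f x = 0) :
    HasCompactSupport f ∧ ∀ x ∉ Metric.closedBall (0 : V n) 1, f x = 0 := by
  have h1 : ∀ x ∉ Metric.closedBall (0 : V n) 1, f x = 0 := by
    intro x hx
    apply h0
    intro hx2
    apply hx
    rw [mem_closedBall_zero_iff, pi_norm_le_iff_of_nonneg zero_le_one]
    intro i
    have h2 : x i ^ 2 ≤ ∑ j, x j ^ 2 :=
      Finset.single_le_sum (f := fun j => x j ^ 2) (fun j _ => sq_nonneg _) (Finset.mem_univ i)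
    have h3 : x i ^ 2 ≤ 1 := h2.trans (le_of_lt hx2)
    rw [Real.norm_eq_abs]
    exact (sq_le_one_iff_abs_le_one _).mp h3
  exact ⟨HasCompactSupport.intro (isCompact_closedBall _ _) h1, h1⟩

theorem Y_le {f : V n → ℝ} (hf : ContDiff ℝ ∞ f) (hc : HasCompactSupport f)
    (h1 : ∀ x ∉ Metric.closedBall (0 : V n) 1, f x = 0) (hb : ∀ x, |f x| ≤ 1) :
    ∫ x, f x ^ 2 ≤ 2 ^ n := by
  have hint := int_sq hf hc
  have e : ∫ x, f x ^ 2 = ∫ x in Metric.closedBall (0 : V n) 1, f x ^ 2 := by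
    rw [setIntegral_eq_integral_of_forall_compl_eq_zero]
    intro x hx
    rw [h1 x hx]
    norm_num
  rw [e]
  calc ∫ x in Metric.closedBall (0 : V n) 1, f x ^ 2
      ≤ ∫ _x in Metric.closedBall (0 : V n) 1, (1 : ℝ) := by
        apply setIntegral_mono_on hint.integrableOn _ measurableSet_closedBall
        · intro x _
          have := hb x
          rw [← sq_abs]
          exact pow_le_one₀ (abs_nonneg _) this
        · exact integrableOn_const (by
            rw [Real.volume_pi_closedBall _ zero_le_one]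
            exact ENNReal.ofReal_ne_top)
    _ = 2 ^ n := by
        rw [setIntegral_const, smul_eq_mul, mul_one, Measure.real,
          Real.volume_pi_closedBall _ zero_le_one, Fintype.card_fin,
          ENNReal.toReal_ofReal (by positivity), mul_one]

/-- The exponents. -/
def ee (n m : ℕ) (j : ℕ) : ℝ := (m / (2 * m + n)) * ((m - 1) / m) ^ j

theorem main1 {f : V n → ℝ} (hf : ContDiff ℝ ∞ f) (hc : HasCompactSupport f) {m k : ℕ}
    (hm : 1 ≤ m) (hb : ∀ l ≤ m + k, sD f l ≤ 1) :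
    ∀ j ≤ k, sD f j ≤ (4 ^ m * (8 ^ (m ^ 2)) ^ (n + 1)) * (∫ x, f x ^ 2) ^ ee n m j := by
  have hY : 0 ≤ ∫ x, f x ^ 2 := integral_nonneg fun x => sq_nonneg _
  set Y := ∫ x, f x ^ 2 with hYd
  set D : ℝ := 4 ^ m * (8 ^ (m ^ 2)) ^ (n + 1) with hD
  set c : ℝ := 8 ^ (m ^ 2) with hc8
  have hc1 : 1 ≤ c := one_le_pow₀ (by norm_num)
  have hcD : c ≤ D := by
    rw [hD]
    calc c = 1 * c ^ 1 := by ring
      _ ≤ 4 ^ m * c ^ (n + 1) := by
          apply mul_le_mul (one_le_pow₀ (by norm_num)) (pow_le_pow_right₀ hc1 (by omega))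
            (by positivity) (by positivity)
  have hD1 : 1 ≤ D := hc1.trans hcD
  have hD0 : 0 < D := lt_of_lt_of_le one_pos hD1
  have hmR : (0 : ℝ) < m := by exact_mod_cast hm
  -- the steps
  have hstep : ∀ j, j + m ≤ m + k → sD f (j + 1) ^ m ≤ c * sD f j ^ (m - 1) := by
    intro j hj
    have h1 := lc_pow (a := sD f) (sD_nonneg f) (c := 8) (by norm_num) (N := m + k)
      (fun j _ => landau hf hc j) (m - 1) j (by omega)
    have e : m - 1 + 1 = m := by omega
    rw [e] at h1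
    refine h1.trans ?_
    apply mul_le_mul_of_nonneg_left _ (by positivity)
    have h2 := hb (j + m) (by omega)
    have h3 := sD_nonneg f j
    calc sD f j ^ (m - 1) * sD f (j + m) ≤ sD f j ^ (m - 1) * 1 :=
          mul_le_mul_of_nonneg_left h2 (by positivity)
      _ = _ := mul_one _
  have e0 : ee n m 0 * ((2 * m + n : ℕ) : ℝ) = m := by
    unfold ee
    push_cast
    field_simp
  intro j
  induction j with
  | zero =>
    intro _
    have h1 := sD0_bound hf hc
    rw [← hYd] at h1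
    have h2 := hstep 0 (by omega)
    rcases (sD_nonneg f 0).eq_or_lt with h0 | h0
    · rw [← h0]
      positivity
    have h3 : sD f 0 ^ (2 * m + n) * sD f 0 ^ ((m - 1) * n)
        ≤ (4 ^ m * c ^ n * Y ^ m) * sD f 0 ^ ((m - 1) * n) := by
      have ex : (n + 2) * m = 2 * m + n + (m - 1) * n := by
        obtain ⟨m', rfl⟩ : ∃ m', m = m' + 1 := ⟨m - 1, by omega⟩
        simp only [Nat.add_sub_cancel]
        ring
      calc sD f 0 ^ (2 * m + n) * sD f 0 ^ ((m - 1) * n) = (sD f 0 ^ (n + 2)) ^ m := by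
            rw [← pow_add, ← pow_mul, ex]
        _ ≤ (4 * sD f 1 ^ n * Y) ^ m := pow_le_pow_left₀ (by positivity) h1 _
        _ = 4 ^ m * (sD f 1 ^ m) ^ n * Y ^ m := by
            rw [mul_pow, mul_pow, ← pow_mul, ← pow_mul, mul_comm n m]
        _ ≤ 4 ^ m * (c * sD f 0 ^ (m - 1)) ^ n * Y ^ m := by
            have := sD_nonneg f 1
            gcongr
        _ = _ := by
            rw [mul_pow, ← pow_mul]
            ring
    have h4 : sD f 0 ^ (2 * m + n) ≤ 4 ^ m * c ^ n * Y ^ m :=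
      le_of_mul_le_mul_right h3 (by positivity)
    have h5 : sD f 0 ^ (2 * m + n) ≤ (D * Y ^ ee n m 0) ^ (2 * m + n) := by
      rw [mul_pow, ← Real.rpow_natCast (Y ^ ee n m 0), ← Real.rpow_mul hY, e0, Real.rpow_natCast]
      refine h4.trans ?_
      apply mul_le_mul_of_nonneg_right _ (by positivity)
      calc 4 ^ m * c ^ n ≤ D := by
            rw [hD]
            have : c ^ n ≤ c ^ (n + 1) := pow_le_pow_right₀ hc1 (by omega)
            gcongr
        _ = D ^ 1 := (pow_one _).symm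
        _ ≤ D ^ (2 * m + n) := pow_le_pow_right₀ hD1 (by omega)
    exact le_of_pow_le_pow_left₀ (by omega) (by positivity) h5
  | succ j ih =>
    intro hj
    have h1 := ih (by omega)
    have h2 := hstep j (by omega)
    have hj0 := sD_nonneg f j
    have hY1 : 0 ≤ Y ^ ee n m j := Real.rpow_nonneg hY _
    have h3 : sD f (j + 1) ^ m ≤ (D * Y ^ ee n m (j + 1)) ^ m := by
      calc sD f (j + 1) ^ m ≤ c * sD f j ^ (m - 1) := h2
        _ ≤ D * (D * Y ^ ee n m j) ^ (m - 1) := by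
            apply mul_le_mul hcD (pow_le_pow_left₀ hj0 h1 _) (by positivity) hD0.le
        _ = D ^ m * (Y ^ ee n m j) ^ (m - 1) := by
            obtain ⟨m', rfl⟩ : ∃ m', m = m' + 1 := ⟨m - 1, by omega⟩
            simp only [Nat.add_sub_cancel]
            ring
        _ = D ^ m * (Y ^ ee n m (j + 1)) ^ m := by
            congr 1
            rw [← Real.rpow_natCast, ← Real.rpow_natCast, ← Real.rpow_mul hY, ← Real.rpow_mul hY]
            congr 1
            unfold ee
            rw [Nat.cast_sub hm, pow_succ]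
            push_cast
            field_simp
        _ = _ := (mul_pow _ _ _).symm
    exact le_of_pow_le_pow_left₀ (by omega) (by positivity) h3

theorem ee_ge {n k : ℕ} {m : ℕ} (hm : m = 4 * (k + n) + 4) {j : ℕ} (hj : j ≤ k) :
    3 / 8 ≤ ee n m j ∧ ee n m j ≤ 1 := by
  have hmR : (0 : ℝ) < m := by
    rw [hm]; positivity
  have hm4 : (4 : ℝ) * (k + n) ≤ m := by
    rw [hm]; push_cast; linarith
  have hkR : (0 : ℝ) ≤ k := by positivity
  have hnR : (0 : ℝ) ≤ n := by positivity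
  have hjk : (j : ℝ) ≤ k := by exact_mod_cast hj
  have hm1 : (1 : ℝ) ≤ m := by
    rw [hm]; push_cast; linarith
  have h1 : ((m : ℝ) - 1) / m = 1 + (-(1 / m)) := by field_simp; ring
  have h2 : (1 : ℝ) / m ≤ 1 := by rw [div_le_one hmR]; exact hm1
  have hB : 1 + (j : ℝ) * (-(1 / m)) ≤ (((m : ℝ) - 1) / m) ^ j := by
    rw [h1]
    exact one_add_mul_le_pow (by linarith) j
  have hp0 : 0 ≤ ((m : ℝ) - 1) / m := div_nonneg (by linarith) hmR.le
  have hp1 : ((m : ℝ) - 1) / m ≤ 1 := by rw [div_le_one hmR]; linarith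
  have hpj : (((m : ℝ) - 1) / m) ^ j ≤ 1 := pow_le_one₀ hp0 hp1
  have hpj0 : 0 ≤ (((m : ℝ) - 1) / m) ^ j := pow_nonneg hp0 _
  unfold ee
  constructor
  · have h3 : 1 - (k : ℝ) / m ≤ (((m : ℝ) - 1) / m) ^ j := by
      refine le_trans ?_ hB
      have : (j : ℝ) / m ≤ k / m := by gcongr
      have e : (j : ℝ) * (-(1 / m)) = -((j : ℝ) / m) := by ring
      rw [e]
      linarith
    have h5 : 0 ≤ 1 - (k : ℝ) / m := by
      rw [sub_nonneg, div_le_one hmR]
      linarith
    calc (3 : ℝ) / 8 ≤ (m / (2 * m + n)) * (1 - (k : ℝ) / m) := by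
          have e : (m : ℝ) / (2 * m + n) * (1 - (k : ℝ) / m) = (m - k) / (2 * m + n) := by
            field_simp
          rw [e, div_le_div_iff₀ (by norm_num) (by positivity)]
          nlinarith
      _ ≤ _ := mul_le_mul_of_nonneg_left h3 (by positivity)
  · have h6 : (m : ℝ) / (2 * m + n) ≤ 1 := by
      rw [div_le_one (by positivity)]
      linarith
    calc (m : ℝ) / (2 * m + n) * (((m : ℝ) - 1) / m) ^ j ≤ 1 * 1 :=
          mul_le_mul h6 hpj hpj0 zero_le_one
      _ = 1 := one_mul 1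

theorem main2 {f : V n → ℝ} (hf : ContDiff ℝ ∞ f)
    (h0 : ∀ x ∉ {x : V n | ∑ j, x j ^ 2 < 1}, f x = 0) (k : ℕ)
    (hb : Cl (4 * (k + n) + 4 + k) 1 f) :
    Cl k ((4 ^ (4 * (k + n) + 4) * (8 ^ ((4 * (k + n) + 4) ^ 2)) ^ (n + 1) * 2 ^ n)
      * (∫ x, f x ^ 2) ^ (3 / 8 : ℝ)) f := by
  obtain ⟨hc, h1⟩ := supp_of h0
  set m := 4 * (k + n) + 4 with hm
  have hY : 0 ≤ ∫ x, f x ^ 2 := integral_nonneg fun x => sq_nonneg _
  have hY2 : ∫ x, f x ^ 2 ≤ 2 ^ n := Y_le hf hc h1 (fun x => by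
    have := hb 0 (by omega) x
    rwa [norm_iteratedFDeriv_zero, Real.norm_eq_abs] at this)
  have hb' : ∀ l ≤ m + k, sD f l ≤ 1 := fun l hl => ciSup_le (hb l hl)
  intro l hl x
  have h2 := main1 hf hc (m := m) (k := k) (by omega) hb' l hl
  obtain ⟨h3, h4⟩ := ee_ge hm hl
  set Y := ∫ x, f x ^ 2 with hYd
  have h5 : Y ^ ee n m l ≤ 2 ^ n * Y ^ (3 / 8 : ℝ) := by
    rcases hY.eq_or_lt with hz | hpos
    · rw [← hz, Real.zero_rpow (by linarith), Real.zero_rpow (by norm_num), mul_zero]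
    · have e : ee n m l = (ee n m l - 3 / 8) + 3 / 8 := by ring
      rw [e, Real.rpow_add hpos]
      apply mul_le_mul_of_nonneg_right _ (by positivity)
      have h2n : (1 : ℝ) ≤ 2 ^ n := one_le_pow₀ (by norm_num)
      calc Y ^ (ee n m l - 3 / 8) ≤ (2 ^ n : ℝ) ^ (ee n m l - 3 / 8) :=
            Real.rpow_le_rpow hY hY2 (by linarith)
        _ ≤ (2 ^ n : ℝ) ^ (1 : ℝ) := Real.rpow_le_rpow_of_exponent_le h2n (by linarith)
        _ = 2 ^ n := Real.rpow_one _
  calc ‖iteratedFDeriv ℝ l f x‖ ≤ sD f l := le_sD hf hc l x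
    _ ≤ _ := h2
    _ ≤ (4 ^ m * (8 ^ (m ^ 2)) ^ (n + 1)) * (2 ^ n * Y ^ (3 / 8 : ℝ)) :=
        mul_le_mul_of_nonneg_left h5 (by positivity)
    _ = _ := by ring

/-- The interpolation inequality. -/
theorem itp : ∀ n k : ℕ, ∃ (K : ℕ) (C : ℝ), 0 < C ∧ ∀ f : V n → ℝ, ContDiff ℝ ∞ f →
    (∀ x ∉ {x : V n | ∑ j, x j ^ 2 < 1}, f x = 0) → ∀ B : ℝ, Cl K B f →
    Cl k (C * (∫ x, f x ^ 2) ^ (3 / 8 : ℝ) * B ^ (1 / 4 : ℝ)) f := by
  intro n k
  refine ⟨4 * (k + n) + 4 + k, 4 ^ (4 * (k + n) + 4) * (8 ^ ((4 * (k + n) + 4) ^ 2)) ^ (n + 1)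
    * 2 ^ n, by positivity, ?_⟩
  intro f hf h0 B hB
  have hY : 0 ≤ ∫ x, f x ^ 2 := integral_nonneg fun x => sq_nonneg _
  have hB0 : 0 ≤ B := (norm_nonneg _).trans (hB 0 (by omega) 0)
  rcases hB0.eq_or_lt with h1 | h1
  · intro l hl x
    have h2 := hB l (by omega) x
    rw [← h1] at h2
    refine h2.trans ?_
    rw [← h1]
    positivity
  · -- scaling
    set g : V n → ℝ := fun x => B⁻¹ • f x with hg
    have hgc : ContDiff ℝ ∞ g := hf.const_smul B⁻¹
    have hder : ∀ l x, iteratedFDeriv ℝ l g x = B⁻¹ • iteratedFDeriv ℝ l f x := by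
      intro l x
      have := iteratedFDeriv_const_smul_apply (𝕜 := ℝ) (i := l) (a := B⁻¹) (f := f) (x := x)
        ((hf.of_le (by exact_mod_cast le_top)).contDiffAt)
      exact this
    have hgK : Cl (4 * (k + n) + 4 + k) 1 g := by
      intro l hl x
      rw [hder, norm_smul, Real.norm_of_nonneg (by positivity)]
      have := hB l hl x
      rw [inv_mul_le_iff₀ h1, mul_one]
      exact this
    have h2 := main2 hgc (fun x hx => by rw [hg]; simp only [h0 x hx, smul_zero]) k hgK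
    have hint : ∫ x, g x ^ 2 = (B⁻¹) ^ 2 * ∫ x, f x ^ 2 := by
      rw [← integral_const_mul]
      congr 1
      funext x
      rw [hg]
      simp only [smul_eq_mul]
      ring
    intro l hl x
    have h3 := h2 l hl x
    rw [hder, norm_smul, Real.norm_of_nonneg (by positivity), hint, inv_mul_le_iff₀ h1] at h3
    refine h3.trans (le_of_eq ?_)
    rw [Real.mul_rpow (by positivity) hY]
    have e : ((B⁻¹) ^ 2 : ℝ) ^ (3 / 8 : ℝ) = B ^ (-(3 / 4) : ℝ) := by
      rw [← Real.rpow_natCast, ← Real.rpow_mul (by positivity), Real.inv_rpow h1.le,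
        ← Real.rpow_neg h1.le]
      norm_num
    rw [e]
    have e2 : B * B ^ (-(3 / 4) : ℝ) = B ^ (1 / 4 : ℝ) := by
      nth_rewrite 1 [← Real.rpow_one B]
      rw [← Real.rpow_add h1]
      norm_num
    rw [← e2]
    ring

end Vale.Agent.P088.HY.Itp
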