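import Vale.Agent.P088.R2.H558.Spec
import Vale.Agent.P088.R2.H712.Itp

/-!
# P088: the row ITP
-/

namespace Vale.Agent.P088.HY

theorem rowITP : RowITP := fun n k => Itp.itp n k

end Vale.Agent.P088.HY
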